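import Crest.Agent.Snaky.Sound

set_option autoImplicit false
set_option exponentiation.threshold 600

namespace Crest.Agent.Snaky

open Crest.CombinatoricsR.PolyominoGame

attribute [local irreducible] vd vu

structure Inv (Q : Prop) (d U I : ℕ) (L : List (Finset Cell × Finset Cell)) : Prop where
  w : ∀ q ∈ L, W q.1 q.2 d ∧ Q
  p : ∀ q ∈ L, q.1 ⊆ lane 256 U
  c : ∀ q ∈ L, q.2 ⊆ lane 0 U
  i : ∀ n, n < 256 → I.testBit n = false → ∃ q ∈ L, cell n ∉ q.2

lemma Inv.add {Q : Prop} {d U I M : ℕ} {L : List (Finset Cell × Finset Cell)} (h : Inv Q d U I L)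
    (hM : WM M d) (hQ : Q) : Inv Q d (U ||| M) (I &&& M) ((lane 256 M, lane 0 M) :: L) := by
  refine ⟨?_, ?_, ?_, ?_⟩
  · intro q hq
    rcases List.mem_cons.1 hq with rfl | hq
    · exact ⟨hM, hQ⟩
    · exact h.w q hq
  · intro q hq
    rcases List.mem_cons.1 hq with rfl | hq
    · refine lane_mono fun i _ hi => ?_
      rw [Nat.testBit_or, hi, Bool.or_true]
    · refine (h.p q hq).trans (lane_mono fun i _ hi => ?_)
      rw [Nat.testBit_or, hi, Bool.true_or]
  · intro q hq
    rcases List.mem_cons.1 hq with rfl | hq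
    · refine lane_mono fun i _ hi => ?_
      rw [Nat.testBit_or, hi, Bool.or_true]
    · refine (h.c q hq).trans (lane_mono fun i _ hi => ?_)
      rw [Nat.testBit_or, hi, Bool.true_or]
  · intro n hn hI
    rw [Nat.testBit_and, Bool.and_eq_false_iff] at hI
    rcases hI with hI | hI
    · obtain ⟨q, hq, h2⟩ := h.i n hn hI
      exact ⟨q, List.mem_cons_of_mem _ hq, h2⟩
    · refine ⟨_, List.mem_cons_self, ?_⟩
      rw [mem_lane_cell hn, Nat.zero_add, hI]
      decide

lemma WM.mono {M d d' : ℕ} (h : WM M d) (hd : d ≤ d') : WM M d' :=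
  W.mono h (Finset.Subset.refl _) (Finset.Subset.refl _) hd

lemma WM.congr {M M' d : ℕ} (h : WM M d) (hM : ∀ i, i < 512 → M'.testBit i = M.testBit i) : WM M' d := by
  refine W.mono h (lane_mono fun i hi hb => ?_) (lane_mono fun i hi hb => ?_) le_rfl
  · rw [hM _ (by omega)]; exact hb
  · rw [hM _ (by omega)]; exact hb

lemma mask512 : (0xffffffffffffffffffffffffffffffffffffffffffffffffffffffffffffffffffffffffffffffffffffffffffffffffffffffffffffffffffffffffffffffff : ℕ) = 2 ^ 512 - 1 := by decide +kernel
lemma mask256 : (0xffffffffffffffffffffffffffffffffffffffffffffffffffffffffffffffff : ℕ) = 2 ^ 256 - 1 := by decide +kernel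

lemma testBit_mask512 {F i : ℕ} (hi : i < 512) :
    (F &&& 0xffffffffffffffffffffffffffffffffffffffffffffffffffffffffffffffffffffffffffffffffffffffffffffffffffffffffffffffffffffffffffffffff).testBit i = F.testBit i := by
  rw [mask512, Nat.testBit_and, Nat.testBit_two_pow_sub_one, decide_eq_true hi, Bool.and_true]

lemma useM_sound {M s U I d : ℕ} {k : Nat → Nat → Bool} (hM : WM M d) (hs : s < 256)
    (h : useM M s U I k = true) : ∃ M', WM M' d ∧ k (U ||| M') (I &&& M') = true := by
  unfold useM at h
  rw [land_eq, land_eq, lor_eq, shl_eq] at h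
  rcases hv : Nat.beq (M &&& vd s) 0 with _ | _
  · rw [hv] at h; exact absurd (show false = true from h) (by decide)
  · rw [hv] at h
    exact ⟨M <<< s, hM.shl hs (Nat.eq_of_beq_eq_true hv), h⟩

lemma useS_sound {M g u s U I d : ℕ} {k : Nat → Nat → Bool} (hM : WM M d) (hs : s < 256) (hu : u < 256)
    (h : useS M g u s U I k = true) : ∃ M', WM M' d ∧ k (U ||| M') (I &&& M') = true := by
  unfold useS at h
  rw [land_eq, shr_eq] at h
  rcases hv : Nat.beq (symG g M &&& vu u) 0 with _ | _
  · rw [hv] at h; exact absurd (show false = true from h) (by decide)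
  · rw [hv] at h
    exact useM_sound ((hM.symG (g := g)).shr hu (Nat.eq_of_beq_eq_true hv)) hs h

lemma useF_sound {D Fj h s U I d : ℕ} {k : Nat → Nat → Bool} (hF : Fj < D → WM Fj d) (hs : s < 256)
    (hh : h < 2048) (h1 : useF D Fj h s U I k = true) :
    Fj < D ∧ ∃ M', WM M' d ∧ k (U ||| M') (I &&& M') = true := by
  unfold useF at h1
  rcases hv : Nat.ble D Fj with _ | _
  · rw [hv] at h1
    have hlt : Fj < D := by
      by_contra hc
      have := Nat.ble_eq_true_of_le (not_lt.1 hc)
      rw [hv] at this
      exact absurd this (by decide)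
    refine ⟨hlt, ?_⟩
    have hF' := hF hlt
    rcases hw : Nat.beq h 0 with _ | _
    · rw [hw] at h1
      refine useS_sound (hF'.congr fun i hi => ?_) hs ?_ h1
      · rw [land_eq]; exact testBit_mask512 hi
      · rw [shr_eq, Nat.shiftRight_eq_div_pow]; omega
    · rw [hw] at h1
      exact useM_sound hF' hs h1
  · rw [hv] at h1; exact absurd (show false = true from h1) (by decide)

lemma loop_sound {T : Tbl} {D d : ℕ} {fin : Nat → Nat → Bool}
    (hT : ∀ j, T.getF j < D → WM (T.getF j) d) (k : ℕ) :
    ∀ (refs U I : ℕ) (L : List (Finset Cell × Finset Cell)), Inv (0 < D) d U I L →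
      loop T D fin k refs U I = true → ∃ U' I' L', Inv (0 < D) d U' I' L' ∧ fin U' I' = true := by
  induction k with
  | zero =>
    intro refs U I L hI h
    exact ⟨U, I, L, hI, h⟩
  | succ k ih =>
    intro refs U I L hI h
    have e : loop T D fin (k + 1) refs U I =
      fB (Nat.land refs 0xffffff) fun j =>
      fB (Nat.land (Nat.shiftRight refs 24) 255) fun s =>
      useF D (T.getF j) (Nat.land (Nat.shiftRight refs 32) 0x7ff) s U I
        (loop T D fin k (Nat.shiftRight refs 43)) := rfl
    rw [e, fB_eq, fB_eq] at h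
    have hs : Nat.land (Nat.shiftRight refs 24) 255 < 256 := by
      rw [land_eq]
      exact lt_of_le_of_lt Nat.and_le_right (by norm_num)
    have hh : Nat.land (Nat.shiftRight refs 32) 0x7ff < 2048 := by
      rw [land_eq]
      exact lt_of_le_of_lt Nat.and_le_right (by norm_num)
    obtain ⟨h1, M', h2, h3⟩ := useF_sound (hT _) hs hh h
    exact ih _ _ _ _ (hI.add h2 (lt_of_le_of_lt (Nat.zero_le _) h1)) h3

lemma bit_of_shr {F x : ℕ} (h : Nat.beq (Nat.land (Nat.shiftRight F x) 1) 1 = true) :
    F.testBit x = true := by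
  have : tb F x = true := by
    unfold tb; exact h
  rw [tb_eq] at this
  exact this

lemma testBit_FX {F x i : ℕ} (h : (F ||| 1 <<< (256 + x)).testBit i = true) :
    F.testBit i = true ∨ i = 256 + x := by
  rw [Nat.testBit_or, Bool.or_eq_true] at h
  rcases h with h | h
  · exact Or.inl h
  · right
    rw [Nat.testBit_shiftLeft, Bool.and_eq_true] at h
    obtain ⟨h1, h2⟩ := h
    have h3 : 256 + x ≤ i := by simpa using h1
    rw [Nat.testBit_one_eq_true_iff_self_eq_zero] at h2
    omega

lemma final_sound {F x U I d : ℕ} (hx : x < 256) {L : List (Finset Cell × Finset Cell)}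
    (hI : Inv (0 < (F >>> 512) <<< 512) d U I L) (hd : F >>> 512 = d + 1 ∨ F >>> 512 = 0)
    (h : finalOk F x U I = true) : FactW F := by
  unfold finalOk at h
  rw [andB_eq, andB_eq, Bool.and_eq_true, Bool.and_eq_true] at h
  obtain ⟨h1, h2, h3⟩ := h
  have hI0 := Nat.eq_of_beq_eq_true h1
  have hFx := bit_of_shr h3
  have hU : (U ||| (F ||| 1 <<< (256 + x))) &&& 0xffffffffffffffffffffffffffffffffffffffffffffffffffffffffffffffffffffffffffffffffffffffffffffffffffffffffffffffffffffffffffffffff =
      (F ||| 1 <<< (256 + x)) &&& 0xffffffffffffffffffffffffffffffffffffffffffffffffffffffffffffffffffffffffffffffffffffffffffffffffffffffffffffffffffffffffffffffff := Nat.eq_of_beq_eq_true h2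
  have hbit : ∀ i, i < 512 → U.testBit i = true → F.testBit i = true ∨ i = 256 + x := by
    intro i hi hb
    apply testBit_FX
    have e := congrArg (fun m => m.testBit i) hU
    try simp only at e
    rw [testBit_mask512 hi, testBit_mask512 hi, Nat.testBit_or U, hb, Bool.true_or] at e
    exact e.symm
  have h2 : ∀ y : Cell, ∃ q ∈ L, y ∉ q.2 := by
    intro y
    by_cases hy : ∃ n, n < 256 ∧ cell n = y
    · obtain ⟨n, hn, rfl⟩ := hy
      exact hI.i n hn (by rw [hI0, Nat.zero_testBit])
    · obtain ⟨q, hq, _⟩ := hI.i 0 (by norm_num) (by rw [hI0, Nat.zero_testBit])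
      refine ⟨q, hq, fun hc => hy ?_⟩
      obtain ⟨n, hn, _, h5⟩ := mem_lane.1 (hI.c q hq hc)
      exact ⟨n, hn, h5⟩
  obtain ⟨q0, hq0, _⟩ := h2 (0, 0)
  have hpos := (hI.w q0 hq0).2
  have hd' : F >>> 512 = d + 1 := by
    rcases hd with hd | hd
    · exact hd
    · rw [hd, Nat.zero_shiftLeft] at hpos
      exact absurd hpos (lt_irrefl 0)
  unfold FactW WM
  rw [hd']
  refine W.node_list (x := cell x) ?_ L ?_ h2
  · rw [mem_lane_cell hx, Nat.zero_add]; exact hFx
  · intro q hq
    refine ⟨(hI.w q hq).1, ?_, ?_⟩
    · intro c hc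
      obtain ⟨i, hi, hb, rfl⟩ := mem_lane.1 (hI.p q hq hc)
      rw [Finset.mem_insert]
      rcases hbit (256 + i) (by omega) hb with h6 | h6
      · right; rw [mem_lane_cell hi]; exact h6
      · left
        have : i = x := by omega
        rw [this]
    · intro c hc
      obtain ⟨i, hi, hb, rfl⟩ := mem_lane.1 (hI.c q hq hc)
      rw [Nat.zero_add] at hb
      rcases hbit i (by omega) hb with h6 | h6
      · rw [mem_lane_cell hi, Nat.zero_add]; exact h6
      · omega

/-! ### the leaves -/

lemma mem_or {M : ℕ} {c : Cell} (i : ℕ) (hi : i < 256) (h : tb M i = true) (e : cell i = c) :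
    c ∈ (↑(lane 0 M) : Set Cell) := by
  rw [Finset.mem_coe, mem_lane]
  refine ⟨i, hi, ?_, e⟩
  rw [Nat.zero_add, ← tb_eq]; exact h

lemma or_copy0 : ContainsCopy (↑(lane 0 (orK 0)) : Set Cell) := by
  refine ⟨(0, 0), 1, 1, by decide, by decide, Or.inr ?_⟩
  intro p hp
  simp only [snaky, Finset.mem_insert, Finset.mem_singleton] at hp
  rcases hp with rfl | rfl | rfl | rfl | rfl | rfl
  · exact mem_or 0 (by norm_num) (by decide +kernel) (by decide)
  · exact mem_or 1 (by norm_num) (by decide +kernel) (by decide)
  · exact mem_or 2 (by norm_num) (by decide +kernel) (by decide)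
  · exact mem_or 3 (by norm_num) (by decide +kernel) (by decide)
  · exact mem_or 19 (by norm_num) (by decide +kernel) (by decide)
  · exact mem_or 20 (by norm_num) (by decide +kernel) (by decide)

lemma or_copy1 : ContainsCopy (↑(lane 0 (orK 1)) : Set Cell) := by
  refine ⟨(1, 4), -1, -1, by decide, by decide, Or.inr ?_⟩
  intro p hp
  simp only [snaky, Finset.mem_insert, Finset.mem_singleton] at hp
  rcases hp with rfl | rfl | rfl | rfl | rfl | rfl
  · exact mem_or 20 (by norm_num) (by decide +kernel) (by decide)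
  · exact mem_or 19 (by norm_num) (by decide +kernel) (by decide)
  · exact mem_or 18 (by norm_num) (by decide +kernel) (by decide)
  · exact mem_or 17 (by norm_num) (by decide +kernel) (by decide)
  · exact mem_or 1 (by norm_num) (by decide +kernel) (by decide)
  · exact mem_or 0 (by norm_num) (by decide +kernel) (by decide)

lemma or_copy2 : ContainsCopy (↑(lane 0 (orK 2)) : Set Cell) := by
  refine ⟨(4, 1), -1, -1, by decide, by decide, Or.inl ?_⟩
  intro p hp
  simp only [snaky, Finset.mem_insert, Finset.mem_singleton] at hp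
  rcases hp with rfl | rfl | rfl | rfl | rfl | rfl
  · exact mem_or 65 (by norm_num) (by decide +kernel) (by decide)
  · exact mem_or 49 (by norm_num) (by decide +kernel) (by decide)
  · exact mem_or 33 (by norm_num) (by decide +kernel) (by decide)
  · exact mem_or 17 (by norm_num) (by decide +kernel) (by decide)
  · exact mem_or 16 (by norm_num) (by decide +kernel) (by decide)
  · exact mem_or 0 (by norm_num) (by decide +kernel) (by decide)

lemma or_copy3 : ContainsCopy (↑(lane 0 (orK 3)) : Set Cell) := by
  refine ⟨(0, 0), 1, 1, by decide, by decide, Or.inl ?_⟩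
  intro p hp
  simp only [snaky, Finset.mem_insert, Finset.mem_singleton] at hp
  rcases hp with rfl | rfl | rfl | rfl | rfl | rfl
  · exact mem_or 0 (by norm_num) (by decide +kernel) (by decide)
  · exact mem_or 16 (by norm_num) (by decide +kernel) (by decide)
  · exact mem_or 32 (by norm_num) (by decide +kernel) (by decide)
  · exact mem_or 48 (by norm_num) (by decide +kernel) (by decide)
  · exact mem_or 49 (by norm_num) (by decide +kernel) (by decide)
  · exact mem_or 65 (by norm_num) (by decide +kernel) (by decide)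

lemma or_copy4 : ContainsCopy (↑(lane 0 (orK 4)) : Set Cell) := by
  refine ⟨(0, 4), 1, -1, by decide, by decide, Or.inr ?_⟩
  intro p hp
  simp only [snaky, Finset.mem_insert, Finset.mem_singleton] at hp
  rcases hp with rfl | rfl | rfl | rfl | rfl | rfl
  · exact mem_or 4 (by norm_num) (by decide +kernel) (by decide)
  · exact mem_or 3 (by norm_num) (by decide +kernel) (by decide)
  · exact mem_or 2 (by norm_num) (by decide +kernel) (by decide)
  · exact mem_or 1 (by norm_num) (by decide +kernel) (by decide)
  · exact mem_or 17 (by norm_num) (by decide +kernel) (by decide)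
  · exact mem_or 16 (by norm_num) (by decide +kernel) (by decide)

lemma or_copy5 : ContainsCopy (↑(lane 0 (orK 5)) : Set Cell) := by
  refine ⟨(4, 0), -1, 1, by decide, by decide, Or.inl ?_⟩
  intro p hp
  simp only [snaky, Finset.mem_insert, Finset.mem_singleton] at hp
  rcases hp with rfl | rfl | rfl | rfl | rfl | rfl
  · exact mem_or 64 (by norm_num) (by decide +kernel) (by decide)
  · exact mem_or 48 (by norm_num) (by decide +kernel) (by decide)
  · exact mem_or 32 (by norm_num) (by decide +kernel) (by decide)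
  · exact mem_or 16 (by norm_num) (by decide +kernel) (by decide)
  · exact mem_or 17 (by norm_num) (by decide +kernel) (by decide)
  · exact mem_or 1 (by norm_num) (by decide +kernel) (by decide)

lemma or_copy6 : ContainsCopy (↑(lane 0 (orK 6)) : Set Cell) := by
  refine ⟨(0, 1), 1, -1, by decide, by decide, Or.inl ?_⟩
  intro p hp
  simp only [snaky, Finset.mem_insert, Finset.mem_singleton] at hp
  rcases hp with rfl | rfl | rfl | rfl | rfl | rfl
  · exact mem_or 1 (by norm_num) (by decide +kernel) (by decide)
  · exact mem_or 17 (by norm_num) (by decide +kernel) (by decide)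
  · exact mem_or 33 (by norm_num) (by decide +kernel) (by decide)
  · exact mem_or 49 (by norm_num) (by decide +kernel) (by decide)
  · exact mem_or 48 (by norm_num) (by decide +kernel) (by decide)
  · exact mem_or 64 (by norm_num) (by decide +kernel) (by decide)

lemma or_copy7 : ContainsCopy (↑(lane 0 (orK 7)) : Set Cell) := by
  refine ⟨(1, 0), -1, 1, by decide, by decide, Or.inr ?_⟩
  intro p hp
  simp only [snaky, Finset.mem_insert, Finset.mem_singleton] at hp
  rcases hp with rfl | rfl | rfl | rfl | rfl | rfl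
  · exact mem_or 16 (by norm_num) (by decide +kernel) (by decide)
  · exact mem_or 17 (by norm_num) (by decide +kernel) (by decide)
  · exact mem_or 18 (by norm_num) (by decide +kernel) (by decide)
  · exact mem_or 19 (by norm_num) (by decide +kernel) (by decide)
  · exact mem_or 3 (by norm_num) (by decide +kernel) (by decide)
  · exact mem_or 4 (by norm_num) (by decide +kernel) (by decide)

lemma or_copy {o : ℕ} (ho : o < 8) : ContainsCopy (↑(lane 0 (orK o)) : Set Cell) := by
  interval_cases o
  · exact or_copy0
  · exact or_copy1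
  · exact or_copy2
  · exact or_copy3
  · exact or_copy4
  · exact or_copy5
  · exact or_copy6
  · exact or_copy7

lemma leaf_sound {F x o : ℕ} (hx : x < 256) (h : leafOk F x o = true) : FactW F := by
  unfold leafOk at h
  rw [andB_eq, andB_eq, andB_eq, Bool.and_eq_true, Bool.and_eq_true, Bool.and_eq_true] at h
  obtain ⟨h1, h2, h3, h4⟩ := h
  have ho : o < 8 := Nat.le_of_ble_eq_true h1
  have hd : 1 ≤ F >>> 512 := Nat.le_of_ble_eq_true h2
  have hFx := bit_of_shr h3
  have hK : (orK o) <<< 256 ||| (F ||| 1 <<< (256 + x)) = F ||| 1 <<< (256 + x) := Nat.eq_of_beq_eq_true h4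
  obtain ⟨d, hd'⟩ : ∃ d, F >>> 512 = d + 1 := ⟨F >>> 512 - 1, by omega⟩
  unfold FactW WM
  rw [hd']
  refine W.leaf _ _ d (cell x) ?_ (cc_mono (or_copy ho) ?_)
  · rw [mem_lane_cell hx, Nat.zero_add]; exact hFx
  · intro c hc
    rw [Finset.mem_coe] at hc
    obtain ⟨i, hi, hb, rfl⟩ := mem_lane.1 hc
    rw [Nat.zero_add] at hb
    have e := congrArg (fun m => m.testBit (256 + i)) hK
    try simp only at e
    rw [Nat.testBit_or, Nat.testBit_shiftLeft] at e
    have e2 : 256 + i - 256 = i := by omega
    have e3 : decide (256 + i ≥ 256) = true := by simp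
    rw [e2, e3, hb, Bool.true_and, Bool.true_or] at e
    rw [Finset.mem_coe, Finset.mem_insert]
    rcases testBit_FX e.symm with h6 | h6
    · right; rw [mem_lane_cell hi]; exact h6
    · left
      have : i = x := by omega
      rw [this]

theorem okF_sound {T : Tbl} {F c : ℕ} (hT : ∀ j, (T.getF j) >>> 512 < F >>> 512 → FactW (T.getF j))
    (h : okF T F c = true) : FactW F := by
  unfold okF at h
  rw [fB_eq] at h
  have hx : Nat.land c 255 < 256 := by
    rw [land_eq]
    exact lt_of_le_of_lt Nat.and_le_right (by norm_num)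
  rcases hk : Nat.beq (Nat.land (Nat.shiftRight c 8) 63) 0 with _ | _
  · rw [hk] at h
    have h' : loop T (Nat.shiftLeft (Nat.shiftRight F 512) 512) (finalOk F (Nat.land c 255))
      (Nat.land (Nat.shiftRight c 8) 63) (Nat.shiftRight c 14) 0
      0xffffffffffffffffffffffffffffffffffffffffffffffffffffffffffffffff = true := h
    rw [shl_eq, shr_eq F 512] at h'
    obtain ⟨U', I', L', hI, hf⟩ := loop_sound (d := F >>> 512 - 1) (fun j hj => by
      rw [Nat.shiftLeft_eq] at hj
      have h1 : (T.getF j) >>> 512 < F >>> 512 := by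
        rw [Nat.shiftRight_eq_div_pow (T.getF j)]
        exact (Nat.div_lt_iff_lt_mul (by positivity)).2 hj
      exact (hT j h1).mono (by omega)) _ _ _ _ [] (by
        refine ⟨by simp, by simp, by simp, ?_⟩
        intro n hn hb
        rw [mask256, Nat.testBit_two_pow_sub_one, decide_eq_true hn] at hb
        exact absurd hb (by decide)) h'
    exact final_sound hx hI (by omega) hf
  · rw [hk] at h
    exact leaf_sound hx h

noncomputable def Tbl.getC (t : Tbl) (j : Nat) : Nat :=
  @Tbl.rec (fun _ => Nat) (fun _ c => c)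
    (fun m _ _ a b => @Bool.rec (fun _ => Nat) a b (Nat.ble m j)) t

lemma chkT_spec {T : Tbl} (t : Tbl) (h : chkT T t = true) : ∀ j, okF T (t.getF j) (t.getC j) = true := by
  induction t with
  | leaf F c => intro j; exact h
  | node m l r ihl ihr =>
    intro j
    have e : chkT T (Tbl.node m l r) = andB (chkT T l) (chkT T r) := rfl
    rw [e, andB_eq, Bool.and_eq_true] at h
    have e1 : (Tbl.node m l r).getF j = @Bool.rec (fun _ => Nat) (l.getF j) (r.getF j) (Nat.ble m j) := rfl
    have e2 : (Tbl.node m l r).getC j = @Bool.rec (fun _ => Nat) (l.getC j) (r.getC j) (Nat.ble m j) := rfl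
    rw [e1, e2]
    cases Nat.ble m j
    · exact ihl h.1 j
    · exact ihr h.2 j

theorem table_sound {T : Tbl} (h : chkT T T = true) : ∀ j, FactW (T.getF j) := by
  have key : ∀ n j, (T.getF j) >>> 512 < n → FactW (T.getF j) := by
    intro n
    induction n with
    | zero => intro j hj; omega
    | succ n ih =>
      intro j hj
      exact okF_sound (fun i hi => ih i (by omega)) (chkT_spec T h j)
  intro j
  exact key _ j (Nat.lt_succ_self _)

theorem chkT_node {T l r : Tbl} (m : Nat) (hl : chkT T l = true) (hr : chkT T r = true) :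
    chkT T (Tbl.node m l r) = true := by
  have e : chkT T (Tbl.node m l r) = andB (chkT T l) (chkT T r) := rfl
  rw [e, hl, hr]; rfl

/-- the root of the table: nothing is needed and at most 21 claims are used -/
def rootOk (F : Nat) : Bool :=
  andB (Nat.beq (Nat.land (Nat.shiftRight F 256)
    0xffffffffffffffffffffffffffffffffffffffffffffffffffffffffffffffff) 0)
    (Nat.ble (Nat.shiftRight F 512) 21)

theorem root_sound {T : Tbl} (h : chkT T T = true) (j : Nat) (hj : rootOk (T.getF j) = true) :
    ∃ C, W ∅ C 21 := by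
  unfold rootOk at hj
  rw [andB_eq, Bool.and_eq_true] at hj
  obtain ⟨h1, h2⟩ := hj
  have h3 : (T.getF j) >>> 256 &&& 0xffffffffffffffffffffffffffffffffffffffffffffffffffffffffffffffff = 0 :=
    Nat.eq_of_beq_eq_true h1
  have h4 : (T.getF j) >>> 512 ≤ 21 := Nat.le_of_ble_eq_true h2
  refine ⟨lane 0 (T.getF j), W.mono (table_sound h j) ?_ (Finset.Subset.refl _) h4⟩
  intro c hc
  obtain ⟨i, hi, hb, _⟩ := mem_lane.1 hc
  have e := congrArg (fun m => m.testBit i) h3
  try simp only at e
  rw [mask256, Nat.testBit_and, Nat.testBit_two_pow_sub_one, decide_eq_true hi, Nat.testBit_shiftRight, hb] at e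
  exact absurd e (by simp)

end Crest.Agent.Snaky
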