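import Mathlib
import Crest.Prelude.Def_PolyominoGame
set_option autoImplicit false
set_option linter.unusedSectionVars false
open Crest.CombinatoricsR.PolyominoGame

namespace Crest.Agent.Snaky

abbrev Cell := ℤ × ℤ

lemma cc_mono {X Y : Set Cell} (hX : ContainsCopy X) (h : X ⊆ Y) : ContainsCopy Y := by
  obtain ⟨t, e1, e2, h1, h2, h3⟩ := hX
  refine ⟨t, e1, e2, h1, h2, ?_⟩
  rcases h3 with h3 | h3
  · left; exact fun p hp => h (h3 p hp)
  · right; exact fun p hp => h (h3 p hp)

/-- `W P C d`: if Maker owns all of `P`, Breaker owns nothing of `C` and Maker is to move then Maker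
completes a copy within `d` more claims. -/
inductive W : Finset Cell → Finset Cell → ℕ → Prop
  | leaf (P C : Finset Cell) (d : ℕ) (x : Cell) (hx : x ∈ C)
      (h : ContainsCopy (↑(insert x P) : Set Cell)) : W P C (d + 1)
  | nodeK (P C : Finset Cell) (d : ℕ) (x : Cell) (hx : x ∈ C) (K : Cell → Finset Cell)
      (hK : ∀ y : Cell, K y ⊆ C) (hy : ∀ y : Cell, y ∉ K y)
      (h : ∀ y : Cell, W (insert x P) (K y) d) : W P C (d + 1)

theorem W.node (P C : Finset Cell) (d : ℕ) (x : Cell) (hx : x ∈ C)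
    (h : ∀ y : Cell, ∃ C' : Finset Cell, C' ⊆ C ∧ y ∉ C' ∧ W (insert x P) C' d) : W P C (d + 1) := by
  choose K h1 h2 h3 using h
  exact W.nodeK P C d x hx K h1 h2 h3

theorem W.mono {P C : Finset Cell} {d : ℕ} (h : W P C d) :
    ∀ {P' C' : Finset Cell} {d' : ℕ}, P ⊆ P' → C ⊆ C' → d ≤ d' → W P' C' d' := by
  induction h with
  | leaf P C d x hx h =>
    intro P' C' d' hP hC hd
    obtain ⟨e, rfl⟩ : ∃ e, d' = e + 1 := ⟨d' - 1, by omega⟩
    refine W.leaf P' C' e x (hC hx) (cc_mono h ?_)
    exact_mod_cast Finset.insert_subset_insert x hP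
  | nodeK P C d x hx K hK hy h ih =>
    intro P' C' d' hP hC hd
    obtain ⟨e, rfl⟩ : ∃ e, d' = e + 1 := ⟨d' - 1, by omega⟩
    exact W.nodeK P' C' e x (hC hx) K (fun y => (hK y).trans hC) hy fun y =>
      ih y (Finset.insert_subset_insert x hP) (Finset.Subset.refl _) (by omega)

/-- the symmetry `φ` maps copies to copies -/
def Symm (φ : Cell ≃ Cell) : Prop := ∀ X : Set Cell, ContainsCopy X → ContainsCopy (φ '' X)

theorem W.map {φ : Cell ≃ Cell} (hφ : Symm φ) {P C : Finset Cell} {d : ℕ} (h : W P C d) :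
    W (P.map φ.toEmbedding) (C.map φ.toEmbedding) d := by
  induction h with
  | leaf P C d x hx h =>
    refine W.leaf _ _ d (φ x) (Finset.mem_map_of_mem _ hx) ?_
    have h2 := hφ _ h
    have e : (φ '' (↑(insert x P) : Set Cell)) = (↑(insert (φ x) (P.map φ.toEmbedding)) : Set Cell) := by
      ext c
      simp only [Set.mem_image, Finset.coe_insert, Finset.mem_coe, Finset.mem_map, Set.mem_insert_iff,
        Equiv.coe_toEmbedding]
      constructor
      · rintro ⟨a, ha | ha, rfl⟩
        · left; rw [ha]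
        · right; exact ⟨a, ha, rfl⟩
      · rintro (rfl | ⟨a, ha, rfl⟩)
        · exact ⟨x, Or.inl rfl, rfl⟩
        · exact ⟨a, Or.inr ha, rfl⟩
    rw [e] at h2
    exact h2
  | nodeK P C d x hx K hK hy h ih =>
    refine W.node _ _ d (φ x) (Finset.mem_map_of_mem _ hx) fun y => ?_
    refine ⟨(K (φ.symm y)).map φ.toEmbedding, Finset.map_subset_map.2 (hK _), ?_, ?_⟩
    · rw [Finset.mem_map_equiv]; exact hy _
    · have e : (insert x P).map φ.toEmbedding = insert (φ x) (P.map φ.toEmbedding) :=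
        Finset.map_insert _ _ _
      have h3 := ih (φ.symm y)
      rw [e] at h3
      exact h3

/-! ### symmetries of the board -/

/-- translation -/
def trE (t : Cell) : Cell ≃ Cell where
  toFun p := (p.1 + t.1, p.2 + t.2)
  invFun p := (p.1 - t.1, p.2 - t.2)
  left_inv p := by ext <;> simp
  right_inv p := by ext <;> simp

/-- reflection of the first coordinate -/
def refE : Cell ≃ Cell where
  toFun p := (-p.1, p.2)
  invFun p := (-p.1, p.2)
  left_inv p := by ext <;> simp
  right_inv p := by ext <;> simp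

/-- exchange of the coordinates -/
def swE : Cell ≃ Cell where
  toFun p := (p.2, p.1)
  invFun p := (p.2, p.1)
  left_inv p := by ext <;> simp
  right_inv p := by ext <;> simp

lemma symm_trE (t : Cell) : Symm (trE t) := by
  intro X hX
  obtain ⟨s, e1, e2, h1, h2, h3⟩ := hX
  refine ⟨(s.1 + t.1, s.2 + t.2), e1, e2, h1, h2, ?_⟩
  rcases h3 with h3 | h3
  · left
    intro p hp
    refine ⟨_, h3 p hp, ?_⟩
    simp only [trE, Equiv.coe_fn_mk]
    ext <;> simp <;> ring
  · right
    intro p hp
    refine ⟨_, h3 p hp, ?_⟩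
    simp only [trE, Equiv.coe_fn_mk]
    ext <;> simp <;> ring

lemma symm_refE : Symm refE := by
  intro X hX
  obtain ⟨s, e1, e2, h1, h2, h3⟩ := hX
  refine ⟨(-s.1, s.2), -e1, e2, ?_, h2, ?_⟩
  · rcases h1 with h | h
    · right; rw [h]
    · left; rw [h]; norm_num
  rcases h3 with h3 | h3
  · left
    intro p hp
    refine ⟨_, h3 p hp, ?_⟩
    simp only [refE, Equiv.coe_fn_mk]
    ext
    · simp; ring
    · simp
  · right
    intro p hp
    refine ⟨_, h3 p hp, ?_⟩
    simp only [refE, Equiv.coe_fn_mk]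
    ext
    · simp; ring
    · simp

lemma symm_swE : Symm swE := by
  intro X hX
  obtain ⟨s, e1, e2, h1, h2, h3⟩ := hX
  refine ⟨(s.2, s.1), e2, e1, h2, h1, ?_⟩
  rcases h3 with h3 | h3
  · right
    intro p hp
    refine ⟨_, h3 p hp, ?_⟩
    simp only [swE, Equiv.coe_fn_mk]
  · left
    intro p hp
    refine ⟨_, h3 p hp, ?_⟩
    simp only [swE, Equiv.coe_fn_mk]

lemma Symm.trans {φ ψ : Cell ≃ Cell} (h1 : Symm φ) (h2 : Symm ψ) : Symm (φ.trans ψ) := by
  intro X hX
  have := h2 _ (h1 X hX)
  rw [Set.image_image] at this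
  exact this

lemma symm_refl : Symm (Equiv.refl Cell) := by
  intro X hX
  simpa using hX

/-! ### convenient forms for a checker -/

/-- a node whose children are given by a list -/
theorem W.node_list {P C : Finset Cell} {d : ℕ} {x : Cell} (hx : x ∈ C)
    (L : List (Finset Cell × Finset Cell))
    (h1 : ∀ q ∈ L, W q.1 q.2 d ∧ q.1 ⊆ insert x P ∧ q.2 ⊆ C)
    (h2 : ∀ y : Cell, ∃ q ∈ L, y ∉ q.2) : W P C (d + 1) := by
  refine W.node P C d x hx fun y => ?_
  obtain ⟨q, hq, hy⟩ := h2 y
  obtain ⟨h3, h4, h5⟩ := h1 q hq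
  exact ⟨q.2, h5, hy, h3.mono h4 (Finset.Subset.refl _) le_rfl⟩

lemma cc_snaky : ContainsCopy (↑snaky : Set Cell) := by
  refine ⟨(0, 0), 1, 1, Or.inl rfl, Or.inl rfl, Or.inl ?_⟩
  intro p hp
  simp only [zero_add, one_mul]
  exact hp

/-- the base facts: five cells of a copy are owned and the sixth is free -/
theorem W.base {x : Cell} (hx : x ∈ snaky) : W (snaky.erase x) {x} 1 := by
  refine W.leaf _ _ 0 x (Finset.mem_singleton_self x) ?_
  rw [Finset.insert_erase hx]
  exact cc_snaky

/-- the general symmetry `p ↦ t + (ε₁ p.1, ε₂ p.2)`, or with the coordinates of `p` exchanged first.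
`n1` = negate the first output coordinate, `n2` = negate the second, `sw` = exchange first -/
def actE (sw n1 n2 : Bool) (t : Cell) : Cell ≃ Cell :=
  (((if sw then swE else Equiv.refl Cell).trans (if n1 then refE else Equiv.refl Cell)).trans
    (if n2 then (swE.trans refE).trans swE else Equiv.refl Cell)).trans (trE t)

lemma symm_actE (sw n1 n2 : Bool) (t : Cell) : Symm (actE sw n1 n2 t) := by
  unfold actE
  refine Symm.trans (Symm.trans (Symm.trans ?_ ?_) ?_) (symm_trE t)
  · split
    · exact symm_swE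
    · exact symm_refl
  · split
    · exact symm_refE
    · exact symm_refl
  · split
    · exact (symm_swE.trans symm_refE).trans symm_swE
    · exact symm_refl

lemma actE_apply (sw n1 n2 : Bool) (t p : Cell) :
    actE sw n1 n2 t p =
      ((bif n1 then -(bif sw then p.2 else p.1) else (bif sw then p.2 else p.1)) + t.1,
       (bif n2 then -(bif sw then p.1 else p.2) else (bif sw then p.1 else p.2)) + t.2) := by
  cases sw <;> cases n1 <;> cases n2 <;> rfl

/-! ### from `W` to a policy -/

/-- `σ` is a winning policy for `N` claims from the position `(M, B)` -/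
def Good (N : ℕ) (M B : Finset Cell) (σ : List Cell → Cell) : Prop :=
  ∀ b : ℕ → Cell,
    (∀ k : ℕ, k + 1 < N → b k ∉ M ∧ b k ∉ B ∧ (∀ j : ℕ, j ≤ k → b k ≠ makerClaim σ b j) ∧
      (∀ j : ℕ, j < k → b k ≠ b j)) →
    (∀ k : ℕ, k < N → makerClaim σ b k ∉ M ∧ makerClaim σ b k ∉ B ∧
      (∀ j : ℕ, j < k → makerClaim σ b k ≠ makerClaim σ b j) ∧
      (∀ j : ℕ, j < k → makerClaim σ b k ≠ b j)) ∧
    ContainsCopy {c | c ∈ M ∨ ∃ j : ℕ, j < N ∧ c = makerClaim σ b j}

/-- combine a first move with policies for the rest -/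
def comb (x : Cell) (τ : Cell → List Cell → Cell) : List Cell → Cell
  | [] => x
  | y :: l => τ y l

lemma makerClaim_comb_zero (x : Cell) (τ : Cell → List Cell → Cell) (b : ℕ → Cell) :
    makerClaim (comb x τ) b 0 = x := rfl

lemma makerClaim_comb_succ (x : Cell) (τ : Cell → List Cell → Cell) (b : ℕ → Cell) (k : ℕ) :
    makerClaim (comb x τ) b (k + 1) = makerClaim (τ (b 0)) (fun i => b (i + 1)) k := by
  unfold makerClaim
  rw [List.range_succ_eq_map]
  simp only [List.map_cons, List.map_map, comb]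
  rfl

lemma exists_fresh (M : Finset Cell) : ∃ x : Cell, x ∉ M := Infinite.exists_notMem_finset M

theorem step {N : ℕ} {M B : Finset Cell} {x : Cell} (hxM : x ∉ M) (hxB : x ∉ B)
    (h : ∀ y : Cell, y ∉ M → y ∉ B → y ≠ x → ∃ σ, Good N (insert x M) (insert y B) σ) :
    ∃ σ, Good (N + 1) M B σ := by
  classical
  have h' : ∀ y : Cell, ∃ σ, (y ∉ M → y ∉ B → y ≠ x → Good N (insert x M) (insert y B) σ) := by
    intro y
    by_cases hy : y ∉ M ∧ y ∉ B ∧ y ≠ x
    · obtain ⟨σ, hσ⟩ := h y hy.1 hy.2.1 hy.2.2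
      exact ⟨σ, fun _ _ _ => hσ⟩
    · exact ⟨fun _ => x, fun a b c => absurd ⟨a, b, c⟩ hy⟩
  choose τ hτ using h'
  refine ⟨comb x τ, fun b hb => ?_⟩
  rcases Nat.eq_zero_or_pos N with hN | hN
  · subst hN
    refine ⟨?_, ?_⟩
    · intro k hk
      have : k = 0 := by omega
      subst this
      rw [makerClaim_comb_zero]
      exact ⟨hxM, hxB, fun j hj => absurd hj (by omega), fun j hj => absurd hj (by omega)⟩
    · obtain ⟨y, hy⟩ := exists_fresh (M ∪ B ∪ {x})
      simp only [Finset.mem_union, Finset.mem_singleton, not_or] at hy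
      have h2 := (hτ y hy.1.1 hy.1.2 hy.2 (fun _ => y) (fun k hk => absurd hk (by omega))).2
      refine cc_mono h2 ?_
      rintro c (hc | ⟨j, hj, _⟩)
      · rcases Finset.mem_insert.1 hc with rfl | hc
        · right; exact ⟨0, by omega, rfl⟩
        · left; exact hc
      · exact absurd hj (by omega)
  · have hb0 := hb 0 (by omega)
    have hb0x : b 0 ≠ x := hb0.2.2.1 0 le_rfl
    have hG := hτ (b 0) hb0.1 hb0.2.1 hb0x (fun i => b (i + 1)) (by
      intro k hk
      have h3 := hb (k + 1) (by omega)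
      refine ⟨?_, ?_, ?_, ?_⟩
      · rw [Finset.mem_insert, not_or]
        exact ⟨h3.2.2.1 0 (by omega), h3.1⟩
      · rw [Finset.mem_insert, not_or]
        exact ⟨h3.2.2.2 0 (by omega), h3.2.1⟩
      · intro j hj
        have := h3.2.2.1 (j + 1) (by omega)
        rwa [makerClaim_comb_succ] at this
      · intro j hj
        exact h3.2.2.2 (j + 1) (by omega))
    obtain ⟨h4, h5⟩ := hG
    refine ⟨?_, ?_⟩
    · intro k hk
      rcases k with _ | k
      · rw [makerClaim_comb_zero]
        exact ⟨hxM, hxB, fun j hj => absurd hj (by omega), fun j hj => absurd hj (by omega)⟩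
      · rw [makerClaim_comb_succ]
        have h6 := h4 k (by omega)
        rw [Finset.mem_insert, not_or, Finset.mem_insert, not_or] at h6
        refine ⟨h6.1.2, h6.2.1.2, ?_, ?_⟩
        · intro j hj
          rcases j with _ | j
          · rw [makerClaim_comb_zero]; exact h6.1.1
          · rw [makerClaim_comb_succ]; exact h6.2.2.1 j (by omega)
        · intro j hj
          rcases j with _ | j
          · exact h6.2.1.1
          · exact h6.2.2.2 j (by omega)
    · refine cc_mono h5 ?_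
      rintro c (hc | ⟨j, hj, rfl⟩)
      · rcases Finset.mem_insert.1 hc with rfl | hc
        · right; exact ⟨0, by omega, (makerClaim_comb_zero _ _ _).symm⟩
        · left; exact hc
      · right
        exact ⟨j + 1, by omega, (makerClaim_comb_succ _ _ _ _).symm⟩

theorem good_of_copy (N : ℕ) : ∀ (M B : Finset Cell), ContainsCopy (↑M : Set Cell) →
    ∃ σ, Good N M B σ := by
  induction N with
  | zero =>
    intro M B hM
    refine ⟨fun _ => (0, 0), fun b _ => ⟨fun k hk => absurd hk (by omega), cc_mono hM ?_⟩⟩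
    intro c hc
    left; exact hc
  | succ N ih =>
    intro M B hM
    obtain ⟨x, hx⟩ := exists_fresh (M ∪ B)
    rw [Finset.mem_union, not_or] at hx
    refine step hx.1 hx.2 fun y _ _ _ => ih _ _ (cc_mono hM ?_)
    exact_mod_cast Finset.subset_insert x M

theorem W.good {P C : Finset Cell} {d : ℕ} (h : W P C d) :
    ∀ {N : ℕ} {M B : Finset Cell}, d ≤ N → P ⊆ M → Disjoint C B → ∃ σ, Good N M B σ := by
  induction h with
  | leaf P C d x hx h =>
    intro N M B hd hP hC
    obtain ⟨K, rfl⟩ : ∃ K, N = K + 1 := ⟨N - 1, by omega⟩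
    by_cases hxM : x ∈ M
    · refine good_of_copy _ _ _ (cc_mono h ?_)
      have : insert x P ⊆ M := Finset.insert_subset hxM hP
      exact_mod_cast this
    · refine step hxM (Finset.disjoint_left.1 hC hx) fun y _ _ _ => good_of_copy _ _ _ (cc_mono h ?_)
      exact_mod_cast Finset.insert_subset_insert x hP
  | nodeK P C d x hx CK hCK hCy h ih =>
    intro N M B hd hP hC
    obtain ⟨K, rfl⟩ : ∃ K, N = K + 1 := ⟨N - 1, by omega⟩
    have key : ∀ z : Cell, z ∉ M → z ∉ B → insert x P ⊆ insert z M → ∃ σ, Good (K + 1) M B σ := by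
      intro z hzM hzB hPz
      refine step hzM hzB fun y _ _ _ => ?_
      refine ih y (by omega) hPz ?_
      rw [Finset.disjoint_insert_right]
      exact ⟨hCy y, Finset.disjoint_of_subset_left (hCK y) hC⟩
    by_cases hxM : x ∈ M
    · obtain ⟨z, hz⟩ := exists_fresh (M ∪ B)
      rw [Finset.mem_union, not_or] at hz
      exact key z hz.1 hz.2 ((Finset.insert_subset hxM hP).trans (Finset.subset_insert _ _))
    · exact key x hxM (Finset.disjoint_left.1 hC hx) (Finset.insert_subset_insert x hP)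

/-- a winning certificate from the empty position gives the statement -/
theorem statement_of_W {C : Finset Cell} (h : W ∅ C 21) :
    ∃ σ : List (ℤ × ℤ) → ℤ × ℤ, ∀ b : ℕ → ℤ × ℤ,
      (∀ k : ℕ, k < 20 →
        (∀ j : ℕ, j ≤ k → b k ≠ Crest.CombinatoricsR.PolyominoGame.makerClaim σ b j) ∧
        (∀ j : ℕ, j < k → b k ≠ b j)) →
      (∀ k : ℕ, k ≤ 20 →
        (∀ j : ℕ, j < k → Crest.CombinatoricsR.PolyominoGame.makerClaim σ b k ≠
          Crest.CombinatoricsR.PolyominoGame.makerClaim σ b j) ∧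
        (∀ j : ℕ, j < k → Crest.CombinatoricsR.PolyominoGame.makerClaim σ b k ≠ b j)) ∧
      Crest.CombinatoricsR.PolyominoGame.ContainsCopy
        {c | ∃ j : ℕ, j ≤ 20 ∧ c = Crest.CombinatoricsR.PolyominoGame.makerClaim σ b j} := by
  obtain ⟨σ, hσ⟩ := h.good (N := 21) (M := ∅) (B := ∅) le_rfl (Finset.Subset.refl _)
    (Finset.disjoint_empty_right _)
  refine ⟨σ, fun b hb => ?_⟩
  obtain ⟨h1, h2⟩ := hσ b (fun k hk => ⟨by simp, by simp, (hb k (by omega)).1, (hb k (by omega)).2⟩)
  refine ⟨fun k hk => ⟨(h1 k (by omega)).2.2.1, (h1 k (by omega)).2.2.2⟩, cc_mono h2 ?_⟩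
  rintro c (hc | ⟨j, hj, rfl⟩)
  · simp at hc
  · exact ⟨j, by omega, rfl⟩

end Crest.Agent.Snaky
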