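import Crest.Agent.Snaky.Check

set_option autoImplicit false

namespace Crest.Agent.Snaky

open Crest.CombinatoricsR.PolyominoGame

/-! ### unfolding the primitive functions -/

lemma andB_eq (a b : Bool) : andB a b = (a && b) := by cases a <;> rfl

lemma fB_eq (j : Nat) (f : Nat → Bool) : fB j f = f j := by cases j <;> rfl

lemma rec_eq (a b : Bool) (c : Bool) : @Bool.rec (fun _ => Bool) a b c = bif c then b else a := by
  cases c <;> rfl

lemma land_eq (a b : Nat) : Nat.land a b = a &&& b := rfl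
lemma lor_eq (a b : Nat) : Nat.lor a b = a ||| b := rfl
lemma shl_eq (a b : Nat) : Nat.shiftLeft a b = a <<< b := rfl
lemma shr_eq (a b : Nat) : Nat.shiftRight a b = a >>> b := rfl

/-! ### semantics of masks -/

/-- the cell with index `i` -/
def cell (i : ℕ) : Cell := (((i / 16 : ℕ) : ℤ), ((i % 16 : ℕ) : ℤ))

/-- the cells of the lane starting at bit `o` -/
def lane (o M : ℕ) : Finset Cell :=
  ((Finset.range 256).filter (fun i => M.testBit (o + i) = true)).image cell

lemma mem_lane {o M : ℕ} {c : Cell} :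
    c ∈ lane o M ↔ ∃ i, i < 256 ∧ M.testBit (o + i) = true ∧ cell i = c := by
  simp only [lane, Finset.mem_image, Finset.mem_filter, Finset.mem_range]
  constructor
  · rintro ⟨i, ⟨h1, h2⟩, h3⟩; exact ⟨i, h1, h2, h3⟩
  · rintro ⟨i, h1, h2, h3⟩; exact ⟨i, ⟨h1, h2⟩, h3⟩

lemma cell_inj {i j : ℕ} (h : cell i = cell j) : i = j := by
  simp only [cell, Prod.mk.injEq, Nat.cast_inj] at h
  omega

lemma mem_lane_cell {o M i : ℕ} (hi : i < 256) : cell i ∈ lane o M ↔ M.testBit (o + i) = true := by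
  rw [mem_lane]
  constructor
  · rintro ⟨j, h1, h2, h3⟩
    rw [cell_inj h3] at h2
    exact h2
  · intro h
    exact ⟨i, hi, h, rfl⟩

lemma lane_mono {o M M' : ℕ} (h : ∀ i, i < 256 → M.testBit (o + i) = true → M'.testBit (o + i) = true) :
    lane o M ⊆ lane o M' := by
  intro c hc
  rw [mem_lane] at hc ⊢
  obtain ⟨i, h1, h2, h3⟩ := hc
  exact ⟨i, h1, h i h1 h2, h3⟩

/-- the fact with mask `M` and depth `d` is a win -/
def WM (M d : ℕ) : Prop := W (lane 256 M) (lane 0 M) d

/-- the packed fact `F` is a win -/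
def FactW (F : ℕ) : Prop := WM F (F >>> 512)

/-- moving a fact along a symmetry, described on indices by `f` -/
lemma WM.transport {M M' d : ℕ} {φ : Cell ≃ Cell} (hφ : Symm φ) (f : ℕ → ℕ) (h : WM M d)
    (hf : ∀ i, i < 512 → M.testBit i = true →
      M'.testBit (f i) = true ∧ f i / 256 = i / 256 ∧ cell (f i % 256) = φ (cell (i % 256))) :
    WM M' d := by
  have key : ∀ o, (o = 0 ∨ o = 256) → (lane o M).map φ.toEmbedding ⊆ lane o M' := by
    intro o ho c hc
    rw [Finset.mem_map] at hc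
    obtain ⟨a, ha, rfl⟩ := hc
    rw [mem_lane] at ha
    obtain ⟨i, hi, h2, rfl⟩ := ha
    have h3 := hf (o + i) (by omega) h2
    obtain ⟨h4, h5, h6⟩ := h3
    rw [mem_lane]
    refine ⟨f (o + i) % 256, by omega, ?_, ?_⟩
    · have e : o + f (o + i) % 256 = f (o + i) := by omega
      rw [e]; exact h4
    · rw [h6]
      have e : (o + i) % 256 = i := by omega
      rw [e]
      rfl
  exact (W.map hφ h).mono (key 256 (Or.inr rfl)) (key 0 (Or.inl rfl)) le_rfl

/-! ### bounded verification in the kernel -/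

def allB (n : Nat) (f : Nat → Bool) : Bool :=
  @Nat.rec (fun _ => Bool) true (fun k ih => andB (f k) ih) n

lemma allB_spec {n : Nat} {f : Nat → Bool} (h : allB n f = true) : ∀ k, k < n → f k = true := by
  induction n with
  | zero => intro k hk; omega
  | succ n ih =>
    intro k hk
    have e : allB (n + 1) f = andB (f n) (allB n f) := rfl
    rw [e, andB_eq, Bool.and_eq_true] at h
    rcases Nat.lt_succ_iff_lt_or_eq.1 hk with h1 | h1
    · exact ih h.2 k h1
    · rw [h1]; exact h.1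

def tb (m i : Nat) : Bool := Nat.beq (Nat.land (Nat.shiftRight m i) 1) 1

lemma tb_eq (m i : Nat) : tb m i = m.testBit i := by
  unfold tb
  rw [land_eq, shr_eq, Nat.testBit_eq_decide_div_mod_eq]
  rw [Nat.and_one_is_mod, Nat.shiftRight_eq_div_pow]
  by_cases h : m / 2 ^ i % 2 = 1
  · rw [h]; rfl
  · have : m / 2 ^ i % 2 = 0 := by omega
    rw [this]; rfl

/-! ### translations -/

def colD (b : Nat) : Nat :=
  Nat.mul (Nat.sub 0x10000 (Nat.shiftLeft 1 (Nat.sub 16 b)))
      0x00010001000100010001000100010001000100010001000100010001000100010001000100010001000100010001000100010001000100010001000100010001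
def rowD (a : Nat) : Nat :=
  Nat.mul (Nat.sub 0x10000000000000000000000000000000000000000000000000000000000000000 (Nat.shiftLeft 1 (Nat.sub 256 (Nat.mul 16 a))))
      0x10000000000000000000000000000000000000000000000000000000000000001
def colU (b : Nat) : Nat :=
  Nat.mul (Nat.sub (Nat.shiftLeft 1 b) 1)
      0x00010001000100010001000100010001000100010001000100010001000100010001000100010001000100010001000100010001000100010001000100010001
def rowU (a : Nat) : Nat :=
  Nat.mul (Nat.sub (Nat.shiftLeft 1 (Nat.mul 16 a)) 1)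
      0x10000000000000000000000000000000000000000000000000000000000000001

lemma vd_eq (s : Nat) : vd s = colD (s &&& 15) ||| rowD (s >>> 4) := rfl
lemma vu_eq (s : Nat) : vu s = colU (s &&& 15) ||| rowU (s >>> 4) := rfl

/-- auxiliary: `p` or else `q` -/
def orB (p q : Bool) : Bool := @Bool.rec (fun _ => Bool) q true p

lemma orB_spec {p q : Bool} (h : orB p q = true) (hp : p = false) : q = true := by
  subst hp; exact h

theorem colD_chk : allB 16 (fun b => allB 512 (fun i =>
    orB (tb (colD b) i) (Nat.ble (Nat.succ (Nat.add (Nat.mod i 16) b)) 16))) = true := by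
  decide +kernel
theorem rowD_chk : allB 16 (fun a => allB 512 (fun i =>
    orB (tb (rowD a) i) (Nat.ble (Nat.succ (Nat.add (Nat.div (Nat.mod i 256) 16) a)) 16))) = true := by
  decide +kernel
theorem colU_chk : allB 16 (fun b => allB 512 (fun i =>
    orB (tb (colU b) i) (Nat.ble b (Nat.mod i 16)))) = true := by
  decide +kernel
theorem rowU_chk : allB 16 (fun a => allB 512 (fun i =>
    orB (tb (rowU a) i) (Nat.ble a (Nat.div (Nat.mod i 256) 16)))) = true := by
  decide +kernel

attribute [irreducible] colD rowD colU rowU tb orB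
attribute [local irreducible] vd vu

lemma colD_spec {b i : ℕ} (hb : b < 16) (hi : i < 512) (h : (colD b).testBit i = false) : i % 16 + b < 16 := by
  have h1 := allB_spec (allB_spec colD_chk b hb) i hi
  rw [← tb_eq] at h
  exact Nat.le_of_ble_eq_true (orB_spec h1 h)
lemma rowD_spec {b i : ℕ} (hb : b < 16) (hi : i < 512) (h : (rowD b).testBit i = false) :
    (i % 256) / 16 + b < 16 := by
  have h1 := allB_spec (allB_spec rowD_chk b hb) i hi
  rw [← tb_eq] at h
  exact Nat.le_of_ble_eq_true (orB_spec h1 h)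
lemma colU_spec {b i : ℕ} (hb : b < 16) (hi : i < 512) (h : (colU b).testBit i = false) : b ≤ i % 16 := by
  have h1 := allB_spec (allB_spec colU_chk b hb) i hi
  rw [← tb_eq] at h
  exact Nat.le_of_ble_eq_true (orB_spec h1 h)
lemma rowU_spec {b i : ℕ} (hb : b < 16) (hi : i < 512) (h : (rowU b).testBit i = false) :
    b ≤ (i % 256) / 16 := by
  have h1 := allB_spec (allB_spec rowU_chk b hb) i hi
  rw [← tb_eq] at h
  exact Nat.le_of_ble_eq_true (orB_spec h1 h)

lemma and15 (s : ℕ) : s &&& 15 = s % 16 := by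
  have := Nat.and_two_pow_sub_one_eq_mod s 4
  simpa using this

lemma shr4 (s : ℕ) : s >>> 4 = s / 16 := by
  rw [Nat.shiftRight_eq_div_pow]

lemma vd_spec {s i : ℕ} (hs : s < 256) (hi : i < 512) (h : (vd s).testBit i = false) :
    i % 16 + s % 16 < 16 ∧ (i % 256) / 16 + s / 16 < 16 := by
  rw [vd_eq, Nat.testBit_or, Bool.or_eq_false_iff, and15, shr4] at h
  exact ⟨colD_spec (by omega) hi h.1, rowD_spec (by omega) hi h.2⟩

lemma vu_spec {s i : ℕ} (hs : s < 256) (hi : i < 512) (h : (vu s).testBit i = false) :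
    s % 16 ≤ i % 16 ∧ s / 16 ≤ (i % 256) / 16 := by
  rw [vu_eq, Nat.testBit_or, Bool.or_eq_false_iff, and15, shr4] at h
  exact ⟨colU_spec (by omega) hi h.1, rowU_spec (by omega) hi h.2⟩

lemma and_zero_bit {a b i : ℕ} (h : a &&& b = 0) (ha : a.testBit i = true) : b.testBit i = false := by
  have := congrArg (fun x => x.testBit i) h
  simp only [Nat.testBit_and, ha, Bool.true_and, Nat.zero_testBit] at this
  exact this

lemma WM.shl {M d s : ℕ} (h : WM M d) (hs : s < 256) (hv : M &&& vd s = 0) : WM (M <<< s) d := by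
  refine h.transport (symm_trE (((s / 16 : ℕ) : ℤ), ((s % 16 : ℕ) : ℤ))) (fun i => i + s) ?_
  intro i hi hb
  obtain ⟨h1, h2⟩ := vd_spec hs hi (and_zero_bit hv hb)
  refine ⟨?_, by omega, ?_⟩
  · rw [Nat.testBit_shiftLeft]
    simp [hb]
  · simp only [cell, trE, Equiv.coe_fn_mk, Prod.mk.injEq]
    constructor
    · have : (i + s) % 256 / 16 = i % 256 / 16 + s / 16 := by omega
      rw [this]; push_cast; ring
    · have : (i + s) % 256 % 16 = i % 256 % 16 + s % 16 := by omega
      rw [this]; push_cast; ring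

lemma WM.shr {M d s : ℕ} (h : WM M d) (hs : s < 256) (hv : M &&& vu s = 0) : WM (M >>> s) d := by
  refine h.transport (symm_trE (-((s / 16 : ℕ) : ℤ), -((s % 16 : ℕ) : ℤ))) (fun i => i - s) ?_
  intro i hi hb
  obtain ⟨h1, h2⟩ := vu_spec hs hi (and_zero_bit hv hb)
  have hsi : s ≤ i := by omega
  refine ⟨?_, by omega, ?_⟩
  · rw [Nat.testBit_shiftRight]
    have : s + (i - s) = i := by omega
    rw [this]; exact hb
  · simp only [cell, trE, Equiv.coe_fn_mk, Prod.mk.injEq]
    constructor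
    · have : i % 256 / 16 = (i - s) % 256 / 16 + s / 16 := by omega
      rw [this]; push_cast; ring
    · have : i % 256 % 16 = (i - s) % 256 % 16 + s % 16 := by omega
      rw [this]; push_cast; ring

/-! ### board symmetries -/

def covB (K A B s i : Nat) : Bool :=
  @Bool.rec (fun _ => Bool) (@Bool.rec (fun _ => Bool) (andB (tb B i) (Nat.ble s i)) true (tb A i)) true (tb K i)

def mvB (K A s i : Nat) : Nat :=
  @Bool.rec (fun _ => Nat) (@Bool.rec (fun _ => Nat) (Nat.sub i s) (Nat.add i s) (tb A i)) i (tb K i)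

lemma stage_bit {K A B s M i : ℕ} (hM : M.testBit i = true) (hc : covB K A B s i = true) :
    (stage K A B s M).testBit (mvB K A s i) = true := by
  unfold stage
  rw [lor_eq, lor_eq, land_eq, land_eq, land_eq, shl_eq, shr_eq]
  unfold covB at hc
  unfold mvB
  rw [tb_eq, tb_eq, tb_eq] at hc
  rw [tb_eq, tb_eq]
  rcases hK : K.testBit i with _ | _
  · rw [hK] at hc
    rcases hA : A.testBit i with _ | _
    · rw [hA] at hc
      change andB (B.testBit i) (Nat.ble s i) = true at hc
      rw [andB_eq, Bool.and_eq_true] at hc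
      have hs := Nat.le_of_ble_eq_true hc.2
      change (M &&& K ||| ((M &&& A) <<< s ||| (M &&& B) >>> s)).testBit (i - s) = true
      rw [Nat.testBit_or, Nat.testBit_or, Nat.testBit_shiftRight]
      have e : s + (i - s) = i := by omega
      rw [e, Nat.testBit_and M B, hM, hc.1]
      simp
    · change (M &&& K ||| ((M &&& A) <<< s ||| (M &&& B) >>> s)).testBit (i + s) = true
      rw [Nat.testBit_or, Nat.testBit_or, Nat.testBit_shiftLeft]
      have e : i + s - s = i := by omega
      rw [e, Nat.testBit_and M A, hM, hA]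
      simp
  · change (M &&& K ||| ((M &&& A) <<< s ||| (M &&& B) >>> s)).testBit i = true
    rw [Nat.testBit_or, Nat.testBit_and, hM, hK]
    simp

def covT1 (i : Nat) : Bool := covB 0xaaaa5555aaaa5555aaaa5555aaaa5555aaaa5555aaaa5555aaaa5555aaaa5555aaaa5555aaaa5555aaaa5555aaaa5555aaaa5555aaaa5555aaaa5555aaaa5555 0xaaaa0000aaaa0000aaaa0000aaaa0000aaaa0000aaaa0000aaaa0000aaaa0000aaaa0000aaaa0000aaaa0000aaaa0000aaaa0000aaaa0000aaaa0000aaaa 0x55550000555500005555000055550000555500005555000055550000555500005555000055550000555500005555000055550000555500005555000055550000 15 i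
def mvT1 (i : Nat) : Nat := mvB 0xaaaa5555aaaa5555aaaa5555aaaa5555aaaa5555aaaa5555aaaa5555aaaa5555aaaa5555aaaa5555aaaa5555aaaa5555aaaa5555aaaa5555aaaa5555aaaa5555 0xaaaa0000aaaa0000aaaa0000aaaa0000aaaa0000aaaa0000aaaa0000aaaa0000aaaa0000aaaa0000aaaa0000aaaa0000aaaa0000aaaa0000aaaa0000aaaa 15 i
lemma bitT1 {M i : ℕ} (h : M.testBit i = true) (hc : covT1 i = true) : (stageT1 M).testBit (mvT1 i) = true :=
  stage_bit h hc

def covT2 (i : Nat) : Bool := covB 0xcccccccc33333333cccccccc33333333cccccccc33333333cccccccc33333333cccccccc33333333cccccccc33333333cccccccc33333333cccccccc33333333 0xcccccccc00000000cccccccc00000000cccccccc00000000cccccccc00000000cccccccc00000000cccccccc00000000cccccccc00000000cccccccc 0x33333333000000003333333300000000333333330000000033333333000000003333333300000000333333330000000033333333000000003333333300000000 30 i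
def mvT2 (i : Nat) : Nat := mvB 0xcccccccc33333333cccccccc33333333cccccccc33333333cccccccc33333333cccccccc33333333cccccccc33333333cccccccc33333333cccccccc33333333 0xcccccccc00000000cccccccc00000000cccccccc00000000cccccccc00000000cccccccc00000000cccccccc00000000cccccccc00000000cccccccc 30 i
lemma bitT2 {M i : ℕ} (h : M.testBit i = true) (hc : covT2 i = true) : (stageT2 M).testBit (mvT2 i) = true :=
  stage_bit h hc

def covT4 (i : Nat) : Bool := covB 0xf0f0f0f0f0f0f0f00f0f0f0f0f0f0f0ff0f0f0f0f0f0f0f00f0f0f0f0f0f0f0ff0f0f0f0f0f0f0f00f0f0f0f0f0f0f0ff0f0f0f0f0f0f0f00f0f0f0f0f0f0f0f 0xf0f0f0f0f0f0f0f00000000000000000f0f0f0f0f0f0f0f00000000000000000f0f0f0f0f0f0f0f00000000000000000f0f0f0f0f0f0f0f0 0xf0f0f0f0f0f0f0f00000000000000000f0f0f0f0f0f0f0f00000000000000000f0f0f0f0f0f0f0f00000000000000000f0f0f0f0f0f0f0f0000000000000000 60 i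
def mvT4 (i : Nat) : Nat := mvB 0xf0f0f0f0f0f0f0f00f0f0f0f0f0f0f0ff0f0f0f0f0f0f0f00f0f0f0f0f0f0f0ff0f0f0f0f0f0f0f00f0f0f0f0f0f0f0ff0f0f0f0f0f0f0f00f0f0f0f0f0f0f0f 0xf0f0f0f0f0f0f0f00000000000000000f0f0f0f0f0f0f0f00000000000000000f0f0f0f0f0f0f0f00000000000000000f0f0f0f0f0f0f0f0 60 i
lemma bitT4 {M i : ℕ} (h : M.testBit i = true) (hc : covT4 i = true) : (stageT4 M).testBit (mvT4 i) = true :=
  stage_bit h hc

def covT8 (i : Nat) : Bool := covB 0xff00ff00ff00ff00ff00ff00ff00ff0000ff00ff00ff00ff00ff00ff00ff00ffff00ff00ff00ff00ff00ff00ff00ff0000ff00ff00ff00ff00ff00ff00ff00ff 0xff00ff00ff00ff00ff00ff00ff00ff0000000000000000000000000000000000ff00ff00ff00ff00ff00ff00ff00ff00 0xff00ff00ff00ff00ff00ff00ff00ff0000000000000000000000000000000000ff00ff00ff00ff00ff00ff00ff00ff00000000000000000000000000000000 120 i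
def mvT8 (i : Nat) : Nat := mvB 0xff00ff00ff00ff00ff00ff00ff00ff0000ff00ff00ff00ff00ff00ff00ff00ffff00ff00ff00ff00ff00ff00ff00ff0000ff00ff00ff00ff00ff00ff00ff00ff 0xff00ff00ff00ff00ff00ff00ff00ff0000000000000000000000000000000000ff00ff00ff00ff00ff00ff00ff00ff00 120 i
lemma bitT8 {M i : ℕ} (h : M.testBit i = true) (hc : covT8 i = true) : (stageT8 M).testBit (mvT8 i) = true :=
  stage_bit h hc

def covR1 (i : Nat) : Bool := covB 0 0xffff0000ffff0000ffff0000ffff0000ffff0000ffff0000ffff0000ffff0000ffff0000ffff0000ffff0000ffff0000ffff0000ffff0000ffff0000ffff 0xffff0000ffff0000ffff0000ffff0000ffff0000ffff0000ffff0000ffff0000ffff0000ffff0000ffff0000ffff0000ffff0000ffff0000ffff0000ffff0000 16 i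
def mvR1 (i : Nat) : Nat := mvB 0 0xffff0000ffff0000ffff0000ffff0000ffff0000ffff0000ffff0000ffff0000ffff0000ffff0000ffff0000ffff0000ffff0000ffff0000ffff0000ffff 16 i
lemma bitR1 {M i : ℕ} (h : M.testBit i = true) (hc : covR1 i = true) : (stageR1 M).testBit (mvR1 i) = true :=
  stage_bit h hc

def covR2 (i : Nat) : Bool := covB 0 0xffffffff00000000ffffffff00000000ffffffff00000000ffffffff00000000ffffffff00000000ffffffff00000000ffffffff00000000ffffffff 0xffffffff00000000ffffffff00000000ffffffff00000000ffffffff00000000ffffffff00000000ffffffff00000000ffffffff00000000ffffffff00000000 32 i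
def mvR2 (i : Nat) : Nat := mvB 0 0xffffffff00000000ffffffff00000000ffffffff00000000ffffffff00000000ffffffff00000000ffffffff00000000ffffffff00000000ffffffff 32 i
lemma bitR2 {M i : ℕ} (h : M.testBit i = true) (hc : covR2 i = true) : (stageR2 M).testBit (mvR2 i) = true :=
  stage_bit h hc

def covR4 (i : Nat) : Bool := covB 0 0xffffffffffffffff0000000000000000ffffffffffffffff0000000000000000ffffffffffffffff0000000000000000ffffffffffffffff 0xffffffffffffffff0000000000000000ffffffffffffffff0000000000000000ffffffffffffffff0000000000000000ffffffffffffffff0000000000000000 64 i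
def mvR4 (i : Nat) : Nat := mvB 0 0xffffffffffffffff0000000000000000ffffffffffffffff0000000000000000ffffffffffffffff0000000000000000ffffffffffffffff 64 i
lemma bitR4 {M i : ℕ} (h : M.testBit i = true) (hc : covR4 i = true) : (stageR4 M).testBit (mvR4 i) = true :=
  stage_bit h hc

def covR8 (i : Nat) : Bool := covB 0 0xffffffffffffffffffffffffffffffff00000000000000000000000000000000ffffffffffffffffffffffffffffffff 0xffffffffffffffffffffffffffffffff00000000000000000000000000000000ffffffffffffffffffffffffffffffff00000000000000000000000000000000 128 i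
def mvR8 (i : Nat) : Nat := mvB 0 0xffffffffffffffffffffffffffffffff00000000000000000000000000000000ffffffffffffffffffffffffffffffff 128 i
lemma bitR8 {M i : ℕ} (h : M.testBit i = true) (hc : covR8 i = true) : (stageR8 M).testBit (mvR8 i) = true :=
  stage_bit h hc

def covC1 (i : Nat) : Bool := covB 0 0x55555555555555555555555555555555555555555555555555555555555555555555555555555555555555555555555555555555555555555555555555555555 0xaaaaaaaaaaaaaaaaaaaaaaaaaaaaaaaaaaaaaaaaaaaaaaaaaaaaaaaaaaaaaaaaaaaaaaaaaaaaaaaaaaaaaaaaaaaaaaaaaaaaaaaaaaaaaaaaaaaaaaaaaaaaaaaa 1 i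
def mvC1 (i : Nat) : Nat := mvB 0 0x55555555555555555555555555555555555555555555555555555555555555555555555555555555555555555555555555555555555555555555555555555555 1 i
lemma bitC1 {M i : ℕ} (h : M.testBit i = true) (hc : covC1 i = true) : (stageC1 M).testBit (mvC1 i) = true :=
  stage_bit h hc

def covC2 (i : Nat) : Bool := covB 0 0x33333333333333333333333333333333333333333333333333333333333333333333333333333333333333333333333333333333333333333333333333333333 0xcccccccccccccccccccccccccccccccccccccccccccccccccccccccccccccccccccccccccccccccccccccccccccccccccccccccccccccccccccccccccccccccc 2 i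
def mvC2 (i : Nat) : Nat := mvB 0 0x33333333333333333333333333333333333333333333333333333333333333333333333333333333333333333333333333333333333333333333333333333333 2 i
lemma bitC2 {M i : ℕ} (h : M.testBit i = true) (hc : covC2 i = true) : (stageC2 M).testBit (mvC2 i) = true :=
  stage_bit h hc

def covC4 (i : Nat) : Bool := covB 0 0xf0f0f0f0f0f0f0f0f0f0f0f0f0f0f0f0f0f0f0f0f0f0f0f0f0f0f0f0f0f0f0f0f0f0f0f0f0f0f0f0f0f0f0f0f0f0f0f0f0f0f0f0f0f0f0f0f0f0f0f0f0f0f0f 0xf0f0f0f0f0f0f0f0f0f0f0f0f0f0f0f0f0f0f0f0f0f0f0f0f0f0f0f0f0f0f0f0f0f0f0f0f0f0f0f0f0f0f0f0f0f0f0f0f0f0f0f0f0f0f0f0f0f0f0f0f0f0f0f0 4 i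
def mvC4 (i : Nat) : Nat := mvB 0 0xf0f0f0f0f0f0f0f0f0f0f0f0f0f0f0f0f0f0f0f0f0f0f0f0f0f0f0f0f0f0f0f0f0f0f0f0f0f0f0f0f0f0f0f0f0f0f0f0f0f0f0f0f0f0f0f0f0f0f0f0f0f0f0f 4 i
lemma bitC4 {M i : ℕ} (h : M.testBit i = true) (hc : covC4 i = true) : (stageC4 M).testBit (mvC4 i) = true :=
  stage_bit h hc

def covC8 (i : Nat) : Bool := covB 0 0xff00ff00ff00ff00ff00ff00ff00ff00ff00ff00ff00ff00ff00ff00ff00ff00ff00ff00ff00ff00ff00ff00ff00ff00ff00ff00ff00ff00ff00ff00ff00ff 0xff00ff00ff00ff00ff00ff00ff00ff00ff00ff00ff00ff00ff00ff00ff00ff00ff00ff00ff00ff00ff00ff00ff00ff00ff00ff00ff00ff00ff00ff00ff00ff00 8 i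
def mvC8 (i : Nat) : Nat := mvB 0 0xff00ff00ff00ff00ff00ff00ff00ff00ff00ff00ff00ff00ff00ff00ff00ff00ff00ff00ff00ff00ff00ff00ff00ff00ff00ff00ff00ff00ff00ff00ff00ff 8 i
lemma bitC8 {M i : ℕ} (h : M.testBit i = true) (hc : covC8 i = true) : (stageC8 M).testBit (mvC8 i) = true :=
  stage_bit h hc

def tgtT (i : Nat) : Nat := Nat.add (Nat.mul 256 (Nat.div i 256)) (Nat.add (Nat.mul 16 (Nat.mod i 16)) (Nat.div (Nat.mod i 256) 16))
theorem verifT : allB 512 (fun i => andB (covT1 i) (andB (covT2 (mvT1 i)) (andB (covT4 (mvT2 (mvT1 i)))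
    (andB (covT8 (mvT4 (mvT2 (mvT1 i)))) (Nat.beq (mvT8 (mvT4 (mvT2 (mvT1 i)))) (tgtT i)))))) = true := by
  decide +kernel
lemma symT_bit {M i : ℕ} (hi : i < 512) (h : M.testBit i = true) : (symT M).testBit (tgtT i) = true := by
  have h1 := allB_spec verifT i hi
  simp only [andB_eq, Bool.and_eq_true] at h1
  obtain ⟨a1, a2, a3, a4, a5⟩ := h1
  rw [← Nat.eq_of_beq_eq_true a5]
  exact bitT8 (bitT4 (bitT2 (bitT1 h a1) a2) a3) a4

def tgtR (i : Nat) : Nat := Nat.add (Nat.mul 256 (Nat.div i 256)) (Nat.add (Nat.mul 16 (Nat.sub 15 (Nat.div (Nat.mod i 256) 16))) (Nat.mod i 16))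
theorem verifR : allB 512 (fun i => andB (covR1 i) (andB (covR2 (mvR1 i)) (andB (covR4 (mvR2 (mvR1 i)))
    (andB (covR8 (mvR4 (mvR2 (mvR1 i)))) (Nat.beq (mvR8 (mvR4 (mvR2 (mvR1 i)))) (tgtR i)))))) = true := by
  decide +kernel
lemma symR_bit {M i : ℕ} (hi : i < 512) (h : M.testBit i = true) : (symR M).testBit (tgtR i) = true := by
  have h1 := allB_spec verifR i hi
  simp only [andB_eq, Bool.and_eq_true] at h1
  obtain ⟨a1, a2, a3, a4, a5⟩ := h1
  rw [← Nat.eq_of_beq_eq_true a5]
  exact bitR8 (bitR4 (bitR2 (bitR1 h a1) a2) a3) a4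

def tgtC (i : Nat) : Nat := Nat.add (Nat.mul 256 (Nat.div i 256)) (Nat.add (Nat.mul 16 (Nat.div (Nat.mod i 256) 16)) (Nat.sub 15 (Nat.mod i 16)))
theorem verifC : allB 512 (fun i => andB (covC1 i) (andB (covC2 (mvC1 i)) (andB (covC4 (mvC2 (mvC1 i)))
    (andB (covC8 (mvC4 (mvC2 (mvC1 i)))) (Nat.beq (mvC8 (mvC4 (mvC2 (mvC1 i)))) (tgtC i)))))) = true := by
  decide +kernel
lemma symC_bit {M i : ℕ} (hi : i < 512) (h : M.testBit i = true) : (symC M).testBit (tgtC i) = true := by
  have h1 := allB_spec verifC i hi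
  simp only [andB_eq, Bool.and_eq_true] at h1
  obtain ⟨a1, a2, a3, a4, a5⟩ := h1
  rw [← Nat.eq_of_beq_eq_true a5]
  exact bitC8 (bitC4 (bitC2 (bitC1 h a1) a2) a3) a4

lemma decomp (i : ℕ) : ∃ L r c : ℕ, i = 256 * L + 16 * r + c ∧ r < 16 ∧ c < 16 ∧ i / 256 = L ∧
    (i % 256) / 16 = r ∧ i % 16 = c ∧ (i % 256) % 16 = c :=
  ⟨i / 256, (i % 256) / 16, i % 16, by omega, by omega, by omega, rfl, rfl, rfl, by omega⟩

lemma WM.symT {M d : ℕ} (h : WM M d) : WM (symT M) d := by
  refine h.transport symm_swE tgtT ?_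
  intro i hi hb
  refine ⟨symT_bit hi hb, ?_, ?_⟩
  · change (256 * (i / 256) + (16 * (i % 16) + (i % 256) / 16)) / 256 = i / 256
    omega
  · change cell ((256 * (i / 256) + (16 * (i % 16) + (i % 256) / 16)) % 256) = _
    obtain ⟨L, r, c, h1, h2, h3, h4, h5, h6, h7⟩ := decomp i
    simp only [cell, swE, Equiv.coe_fn_mk, Prod.mk.injEq, h4, h5, h6, h7]
    clear h4 h5 h6 h7 h1 hb hi h
    have e0 : (256 * L + (16 * c + r)) % 256 = 16 * c + r := by omega
    have e1 : (16 * c + r) / 16 = c := by omega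
    have e2 : (16 * c + r) % 16 = r := by omega
    rw [e0, e1, e2]
    exact ⟨rfl, rfl⟩

lemma symm_refR : Symm (refE.trans (trE (15, 0))) := symm_refE.trans (symm_trE _)
lemma symm_refC : Symm (((swE.trans refE).trans swE).trans (trE (0, 15))) :=
  ((symm_swE.trans symm_refE).trans symm_swE).trans (symm_trE _)

lemma WM.symR {M d : ℕ} (h : WM M d) : WM (symR M) d := by
  refine h.transport symm_refR tgtR ?_
  intro i hi hb
  refine ⟨symR_bit hi hb, ?_, ?_⟩
  · change (256 * (i / 256) + (16 * (15 - (i % 256) / 16) + i % 16)) / 256 = i / 256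
    omega
  · change cell ((256 * (i / 256) + (16 * (15 - (i % 256) / 16) + i % 16)) % 256) = _
    obtain ⟨L, r, c, h1, h2, h3, h4, h5, h6, h7⟩ := decomp i
    simp only [cell, refE, trE, Equiv.trans_apply, Equiv.coe_fn_mk, Prod.mk.injEq, h4, h5, h6, h7]
    have e1 : (256 * L + (16 * (15 - r) + c)) % 256 / 16 = 15 - r := by omega
    have e2 : (256 * L + (16 * (15 - r) + c)) % 256 % 16 = c := by omega
    rw [e1, e2]
    constructor <;> omega

lemma WM.symC {M d : ℕ} (h : WM M d) : WM (symC M) d := by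
  refine h.transport symm_refC tgtC ?_
  intro i hi hb
  refine ⟨symC_bit hi hb, ?_, ?_⟩
  · change (256 * (i / 256) + (16 * ((i % 256) / 16) + (15 - i % 16))) / 256 = i / 256
    omega
  · change cell ((256 * (i / 256) + (16 * ((i % 256) / 16) + (15 - i % 16))) % 256) = _
    obtain ⟨L, r, c, h1, h2, h3, h4, h5, h6, h7⟩ := decomp i
    simp only [cell, refE, swE, trE, Equiv.trans_apply, Equiv.coe_fn_mk, Prod.mk.injEq, h4, h5, h6, h7]
    have e1 : (256 * L + (16 * r + (15 - c))) % 256 / 16 = r := by omega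
    have e2 : (256 * L + (16 * r + (15 - c))) % 256 % 16 = 15 - c := by omega
    rw [e1, e2]
    constructor <;> omega

lemma WM.symG {M d g : ℕ} (h : WM M d) : WM (symG g M) d := by
  unfold Snaky.symG
  have h1 : WM (@Bool.rec (fun _ => Nat) M (Snaky.symT M) (Nat.beq (Nat.land g 1) 1)) d := by
    cases Nat.beq (Nat.land g 1) 1
    · exact h
    · exact h.symT
  have h2 : ∀ M', WM M' d → WM (@Bool.rec (fun _ => Nat) M' (Snaky.symR M') (Nat.beq (Nat.land g 2) 2)) d := by
    intro M' h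
    cases Nat.beq (Nat.land g 2) 2
    · exact h
    · exact h.symR
  have h3 : ∀ M', WM M' d → WM (@Bool.rec (fun _ => Nat) M' (Snaky.symC M') (Nat.beq (Nat.land g 4) 4)) d := by
    intro M' h
    cases Nat.beq (Nat.land g 4) 4
    · exact h
    · exact h.symC
  exact h3 _ (h2 _ h1)

end Crest.Agent.Snaky
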