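import Crest.Agent.Snaky.Sound2

set_option autoImplicit false

/-!
The two top positions of the SNAKY certificate do not fit on the 16 x 16 board of the table; they
are combined here on the infinite board.
-/

namespace Crest.Agent.Snaky

open Crest.CombinatoricsR.PolyominoGame

/-- inverse of `actE` -/
def invT (sw n1 n2 : Bool) (t y : Cell) : Cell :=
  bif sw then
    ((bif n2 then -(y.2 - t.2) else y.2 - t.2), (bif n1 then -(y.1 - t.1) else y.1 - t.1))
  else
    ((bif n1 then -(y.1 - t.1) else y.1 - t.1), (bif n2 then -(y.2 - t.2) else y.2 - t.2))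

/-- computable form of `actE` -/
def fwd (sw n1 n2 : Bool) (t p : Cell) : Cell :=
  ((bif n1 then -(bif sw then p.2 else p.1) else (bif sw then p.2 else p.1)) + t.1,
    (bif n2 then -(bif sw then p.1 else p.2) else (bif sw then p.1 else p.2)) + t.2)

lemma actE_fwd (sw n1 n2 : Bool) (t p : Cell) : actE sw n1 n2 t p = fwd sw n1 n2 t p :=
  actE_apply sw n1 n2 t p

lemma invT_fwd (sw n1 n2 : Bool) (t p : Cell) : invT sw n1 n2 t (fwd sw n1 n2 t p) = p := by
  obtain ⟨a, b⟩ := p
  obtain ⟨u, v⟩ := t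
  cases sw <;> cases n1 <;> cases n2 <;> simp [invT, fwd]

lemma fwd_invT (sw n1 n2 : Bool) (t y : Cell) : fwd sw n1 n2 t (invT sw n1 n2 t y) = y := by
  obtain ⟨a, b⟩ := y
  obtain ⟨u, v⟩ := t
  cases sw <;> cases n1 <;> cases n2 <;> simp [invT, fwd]

/-- is `p` a marked cell of the board? -/
def inB (F : Nat) (p : Cell) : Bool :=
  decide (0 ≤ p.1) && (decide (p.1 < 16) && (decide (0 ≤ p.2) && (decide (p.2 < 16) &&
    tb F (16 * p.1.toNat + p.2.toNat))))

lemma inB_of_mem {F : Nat} {p : Cell} (h : p ∈ lane 0 F) : inB F p = true := by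
  obtain ⟨i, hi, hb, rfl⟩ := mem_lane.1 h
  rw [Nat.zero_add] at hb
  unfold inB cell
  have e : 16 * (i / 16) + i % 16 = i := by omega
  simp only [Int.toNat_natCast, e]
  rw [tb_eq, hb]
  simp only [Bool.and_true, Bool.and_eq_true, decide_eq_true_eq]
  omega

lemma cell_of_inB {F : Nat} {p : Cell} (h : inB F p = true) :
    ∃ i, i < 256 ∧ tb F i = true ∧ cell i = p := by
  unfold inB at h
  simp only [Bool.and_eq_true, decide_eq_true_eq] at h
  obtain ⟨h1, h2, h3, h4, h5⟩ := h
  refine ⟨16 * p.1.toNat + p.2.toNat, by omega, h5, ?_⟩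
  unfold cell
  obtain ⟨a, b⟩ := p
  simp only at h1 h2 h3 h4 ⊢
  simp only [Prod.mk.injEq]
  constructor <;> omega

/-- a use of a fact -/
structure Chd where
  F : Nat
  sw : Bool
  n1 : Bool
  n2 : Bool
  t : Cell

namespace Chd

def C (q : Chd) : Finset Cell := (lane 0 q.F).map (actE q.sw q.n1 q.n2 q.t).toEmbedding
def P (q : Chd) : Finset Cell := (lane 256 q.F).map (actE q.sw q.n1 q.n2 q.t).toEmbedding
def test (q : Chd) (y : Cell) : Bool := inB q.F (invT q.sw q.n1 q.n2 q.t y)

lemma win {q : Chd} {d : ℕ} (h : FactW q.F) (hd : q.F >>> 512 ≤ d) : W q.P q.C d :=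
  (W.map (symm_actE _ _ _ _) h).mono (Finset.Subset.refl _) (Finset.Subset.refl _) hd

lemma test_of_mem {q : Chd} {y : Cell} (h : y ∈ q.C) : q.test y = true := by
  unfold C at h
  rw [Finset.mem_map] at h
  obtain ⟨p, hp, rfl⟩ := h
  unfold test
  rw [Equiv.coe_toEmbedding, actE_fwd, invT_fwd]
  exact inB_of_mem hp

lemma cell_of_test {q : Chd} {y : Cell} (h : q.test y = true) :
    ∃ i, i < 256 ∧ tb q.F i = true ∧ y = fwd q.sw q.n1 q.n2 q.t (cell i) := by
  obtain ⟨i, h1, h2, h3⟩ := cell_of_inB h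
  exact ⟨i, h1, h2, by rw [h3, fwd_invT]⟩

/-- all Maker cells of the fact lie in the list `l` -/
def pOk (q : Chd) (l : List Cell) : Bool :=
  allB 256 fun i => !(tb q.F (256 + i)) ||
    l.any fun p => decide (p = fwd q.sw q.n1 q.n2 q.t (cell i))

lemma P_sub {q : Chd} {l : List Cell} (h : q.pOk l = true) : ∀ p ∈ q.P, p ∈ l := by
  intro p hp
  unfold P at hp
  rw [Finset.mem_map] at hp
  obtain ⟨c, hc, rfl⟩ := hp
  obtain ⟨i, hi, hb, rfl⟩ := mem_lane.1 hc
  have h1 := allB_spec h i hi
  rw [tb_eq, hb, Bool.not_true, Bool.false_or, List.any_eq_true] at h1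
  obtain ⟨p, hp, h2⟩ := h1
  rw [decide_eq_true_eq] at h2
  rw [Equiv.coe_toEmbedding, actE_fwd, ← h2]
  exact hp

/-- every candidate cell of the fact satisfies `f` -/
def cover (q : Chd) (f : Cell → Bool) : Bool :=
  allB 256 fun i => !(tb q.F i) || f (fwd q.sw q.n1 q.n2 q.t (cell i))

lemma cover_spec {q : Chd} {f : Cell → Bool} (h : q.cover f = true) (y : Cell)
    (hy : q.test y = true) : f y = true := by
  obtain ⟨i, hi, hb, rfl⟩ := cell_of_test hy
  have h1 := allB_spec h i hi
  rw [hb, Bool.not_true, Bool.false_or] at h1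
  exact h1

end Chd

/-- node on the infinite board; `L` = children (needed cells, carrier, test) -/
theorem top_node {P : Finset Cell} {x : Cell} {d : ℕ}
    (L : List (Finset Cell × Finset Cell × (Cell → Bool)))
    (h1 : ∀ q ∈ L, W q.1 q.2.1 d ∧ q.1 ⊆ insert x P ∧ ∀ y ∈ q.2.1, q.2.2 y = true)
    (h2 : ∀ y : Cell, ∃ q ∈ L, q.2.2 y = false) :
    ∃ C : Finset Cell, W P C (d + 1) ∧ ∀ y ∈ C, y = x ∨ ∃ q ∈ L, q.2.2 y = true := by
  classical
  refine ⟨insert x ((L.map fun q => q.2.1).foldr (· ∪ ·) ∅), ?_, ?_⟩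
  · have hsub : ∀ (L : List (Finset Cell × Finset Cell × (Cell → Bool))), ∀ q ∈ L,
        q.2.1 ⊆ (L.map fun q => q.2.1).foldr (· ∪ ·) ∅ := by
      intro L
      induction L with
      | nil => intro q hq; simp at hq
      | cons a L ih =>
        intro q hq
        rcases List.mem_cons.1 hq with rfl | hq
        · intro c hc; simp only [List.map_cons, List.foldr_cons, Finset.mem_union]; exact Or.inl hc
        · intro c hc; simp only [List.map_cons, List.foldr_cons, Finset.mem_union]
          exact Or.inr (ih q hq hc)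
    refine W.node _ _ d x (Finset.mem_insert_self _ _) fun y => ?_
    obtain ⟨q, hq, hy⟩ := h2 y
    obtain ⟨h3, h4, h5⟩ := h1 q hq
    refine ⟨q.2.1, (hsub L q hq).trans (Finset.subset_insert _ _), ?_, ?_⟩
    · intro hc
      rw [h5 y hc] at hy
      exact absurd hy (by decide)
    · exact h3.mono h4 (Finset.Subset.refl _) le_rfl
  · have hmem : ∀ (L : List (Finset Cell × Finset Cell × (Cell → Bool))) (y : Cell),
        y ∈ (L.map fun q => q.2.1).foldr (· ∪ ·) ∅ → ∃ q ∈ L, y ∈ q.2.1 := by
      intro L y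
      induction L with
      | nil => intro h; simp at h
      | cons a L ih =>
        intro h
        simp only [List.map_cons, List.foldr_cons, Finset.mem_union] at h
        rcases h with h | h
        · exact ⟨a, List.mem_cons_self, h⟩
        · obtain ⟨q, hq, hy⟩ := ih h
          exact ⟨q, List.mem_cons_of_mem _ hq, hy⟩
    intro y hy
    rcases Finset.mem_insert.1 hy with h | h
    · exact Or.inl h
    · obtain ⟨q, hq, h3⟩ := hmem L y h
      exact Or.inr ⟨q, hq, (h1 q hq).2.2 y h3⟩

/-- the last but one position: Maker owns `p`, claims `x`; `L` = uses of table facts, `q0` the first -/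
theorem top_one {p x : Cell} (q0 : Chd) (L : List Chd)
    (hW : ∀ q ∈ q0 :: L, FactW q.F)
    (hd : ((q0 :: L).all fun q => decide (q.F >>> 512 ≤ 19)) = true)
    (hP : ((q0 :: L).all fun q => q.pOk [x, p]) = true)
    (hc : q0.cover (fun y => L.any fun q => !(q.test y)) = true) :
    ∃ C : Finset Cell, W {p} C 20 ∧
      ∀ y ∈ C, (decide (y = x) || (q0 :: L).any fun q => q.test y) = true := by
  rw [List.all_eq_true] at hd hP
  obtain ⟨C, h1, h2⟩ := top_node (P := {p}) (x := x) (d := 19)
    ((q0 :: L).map fun q => (q.P, q.C, q.test)) (by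
      intro q hq
      rw [List.mem_map] at hq
      obtain ⟨r, hr, rfl⟩ := hq
      refine ⟨Chd.win (hW r hr) (of_decide_eq_true (hd r hr)), ?_, fun y hy => Chd.test_of_mem hy⟩
      intro c hc
      have := Chd.P_sub (hP r hr) c hc
      simp only [List.mem_cons, List.not_mem_nil, or_false] at this
      simp only [Finset.mem_insert, Finset.mem_singleton]
      exact this) (by
      intro y
      rcases hy : q0.test y with _ | _
      · exact ⟨_, List.mem_map.2 ⟨q0, List.mem_cons_self, rfl⟩, hy⟩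
      · have h3 := Chd.cover_spec hc y hy
        rw [List.any_eq_true] at h3
        obtain ⟨q, hq, h4⟩ := h3
        refine ⟨_, List.mem_map.2 ⟨q, List.mem_cons_of_mem _ hq, rfl⟩, ?_⟩
        simpa using h4)
  refine ⟨C, h1, ?_⟩
  intro y hy
  rw [Bool.or_eq_true, decide_eq_true_eq, List.any_eq_true]
  rcases h2 y hy with h3 | ⟨q, hq, h3⟩
  · exact Or.inl h3
  · rw [List.mem_map] at hq
    obtain ⟨r, hr, rfl⟩ := hq
    exact Or.inr ⟨r, hr, h3⟩

/-- the empty position: Maker claims `x`; `L` = uses of table facts (first `q0`), `S` = uses of the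
extra fact with Maker cell `p`, carrier tested by `f` -/
theorem top_two {p x : Cell} {f : Cell → Bool} (hA : ∃ C : Finset Cell, W {p} C 20 ∧ ∀ y ∈ C, f y = true)
    (q0 : Chd) (L : List Chd) (S : List (Bool × Bool × Bool × Cell))
    (hW : ∀ q ∈ q0 :: L, FactW q.F)
    (hd : ((q0 :: L).all fun q => decide (q.F >>> 512 ≤ 20)) = true)
    (hP : ((q0 :: L).all fun q => q.pOk [x]) = true)
    (hS : (S.all fun s => decide (fwd s.1 s.2.1 s.2.2.1 s.2.2.2 p = x)) = true)
    (hc : q0.cover (fun y => (L.any fun q => !(q.test y)) ||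
      (S.any fun s => !(f (invT s.1 s.2.1 s.2.2.1 s.2.2.2 y)))) = true) :
    ∃ C : Finset Cell, W ∅ C 21 := by
  rw [List.all_eq_true] at hd hP hS
  obtain ⟨CA, hA1, hA2⟩ := hA
  obtain ⟨C, h1, _⟩ := top_node (P := ∅) (x := x) (d := 20)
    (((q0 :: L).map fun q => (q.P, q.C, q.test)) ++
      S.map fun s => (({p} : Finset Cell).map (actE s.1 s.2.1 s.2.2.1 s.2.2.2).toEmbedding,
        CA.map (actE s.1 s.2.1 s.2.2.1 s.2.2.2).toEmbedding,
        fun y => f (invT s.1 s.2.1 s.2.2.1 s.2.2.2 y))) (by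
      intro q hq
      rw [List.mem_append] at hq
      rcases hq with hq | hq
      · rw [List.mem_map] at hq
        obtain ⟨r, hr, rfl⟩ := hq
        refine ⟨Chd.win (hW r hr) (of_decide_eq_true (hd r hr)), ?_, fun y hy => Chd.test_of_mem hy⟩
        intro c hc
        have := Chd.P_sub (hP r hr) c hc
        simp only [List.mem_cons, List.not_mem_nil, or_false] at this
        simp only [Finset.mem_insert, Finset.notMem_empty, or_false]
        exact this
      · rw [List.mem_map] at hq
        obtain ⟨s, hs, rfl⟩ := hq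
        refine ⟨W.map (symm_actE _ _ _ _) hA1, ?_, ?_⟩
        · intro c hc
          have h3 := of_decide_eq_true (hS s hs)
          simp only [Finset.map_singleton, Finset.mem_singleton, Equiv.coe_toEmbedding] at hc
          rw [hc, actE_fwd, h3]
          exact Finset.mem_insert_self _ _
        · intro y hy
          simp only [Finset.mem_map, Equiv.coe_toEmbedding] at hy
          obtain ⟨c, hc, rfl⟩ := hy
          simp only [actE_fwd, invT_fwd]
          exact hA2 c hc) (by
      intro y
      rcases hy : q0.test y with _ | _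
      · exact ⟨_, List.mem_append.2 (Or.inl (List.mem_map.2 ⟨q0, List.mem_cons_self, rfl⟩)), hy⟩
      · have h3 := Chd.cover_spec hc y hy
        rw [Bool.or_eq_true, List.any_eq_true, List.any_eq_true] at h3
        rcases h3 with ⟨q, hq, h4⟩ | ⟨s, hs, h4⟩
        · refine ⟨_, List.mem_append.2 (Or.inl (List.mem_map.2 ⟨q, List.mem_cons_of_mem _ hq, rfl⟩)), ?_⟩
          simpa using h4
        · refine ⟨_, List.mem_append.2 (Or.inr (List.mem_map.2 ⟨s, hs, rfl⟩)), ?_⟩
          simpa using h4)
  exact ⟨C, h1⟩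

end Crest.Agent.Snaky
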